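import Vale.Agent.P021.R2.H691.Final
import Vale.Agent.P021.R2.H691.Bases

namespace Vale.Agent.Results.P021.EvenDenominators

open Vale.Agent.P021.R2.H691

/-- Lower bounds for `|π - p / q|`, all large denominators `q`, which improve with the power of 2
in `q`; denominators with a large power of 2; denominators `b ^ N` and digits in base `b`. -/
theorem result :
    (∃ Q : ℝ, ∀ (p : ℤ) (q v : ℕ), Q < q → 2 ^ v ∣ q →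
      (q : ℝ) ^ (-(5.48 : ℝ)) * 2 ^ (0.35 * (v : ℝ)) < |Real.pi - (p : ℝ) / (q : ℝ)|) ∧
    (∃ Q : ℝ, ∀ (p : ℤ) (q v : ℕ), Q < q → 2 ^ v ∣ q → q ^ 2 ≤ 2 ^ (5 * v) →
      (q : ℝ) ^ (-(5.122 : ℝ)) < |Real.pi - (p : ℝ) / (q : ℝ)|) ∧
    (∃ Q : ℝ, ∀ (p : ℤ) (q v : ℕ), Q < q → 2 ^ v ∣ q → q ^ 3 ≤ 2 ^ (10 * v) →
      (q : ℝ) ^ (-(5.14 : ℝ)) < |Real.pi - (p : ℝ) / (q : ℝ)|) ∧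
    (∀ b v : ℕ, 2 ≤ b → 2 ^ v ∣ b → b ^ 2 ≤ 2 ^ (5 * v) → ∃ M : ℕ, ∀ N : ℕ, M ≤ N →
      (∀ p : ℤ, ((b : ℝ) ^ N) ^ (-(5.122 : ℝ)) < |Real.pi - (p : ℝ) / (b : ℝ) ^ N|) ∧
      (∃ k : ℕ, N < k ∧ (k : ℝ) < 5.122 * N + 1 ∧ ⌊Real.pi * (b : ℝ) ^ k⌋ % (b : ℤ) ≠ 0) ∧
      (∃ k : ℕ, N < k ∧ (k : ℝ) < 5.122 * N + 1 ∧ ⌊Real.pi * (b : ℝ) ^ k⌋ % (b : ℤ) ≠ b - 1)) ∧
    (∀ b v : ℕ, 2 ≤ b → 2 ^ v ∣ b → b ^ 3 ≤ 2 ^ (10 * v) → ∃ M : ℕ, ∀ N : ℕ, M ≤ N →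
      (∀ p : ℤ, ((b : ℝ) ^ N) ^ (-(5.14 : ℝ)) < |Real.pi - (p : ℝ) / (b : ℝ) ^ N|) ∧
      (∃ k : ℕ, N < k ∧ (k : ℝ) < 5.14 * N + 1 ∧ ⌊Real.pi * (b : ℝ) ^ k⌋ % (b : ℤ) ≠ 0) ∧
      (∃ k : ℕ, N < k ∧ (k : ℝ) < 5.14 * N + 1 ∧ ⌊Real.pi * (b : ℝ) ^ k⌋ % (b : ℤ) ≠ b - 1)) :=
  ⟨uniform, t25, t310, bases t25, bases t310⟩

end Vale.Agent.Results.P021.EvenDenominators
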