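import Vale.Agent.P021.Defs
import Vale.Agent.P021.R2.H626.Final

namespace Vale.Agent.Results.P021.ExponentPiBound

open Vale.Agent.P021

/-- The irrationality exponent of `π` is at most `5.48`. -/
theorem result : irrationalityExponent Real.pi ≤ ((5.48 : ℝ) : EReal) :=
  R2.H626.mu_le

end Vale.Agent.Results.P021.ExponentPiBound
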