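import Vale.Agent.P021.R2.H691.OddEnd

namespace Vale.Agent.Results.P021.SmallPrimeDivisors

open Vale.Agent.P021.R2.H691

/-- Lower bounds for `|π - p / q|` for denominators `q` with many small prime factors, for the
denominators `lcm(1, …, m)`, and for sums of fractions with denominators at most `m`. -/
theorem result :
    (∃ Q : ℝ, ∀ (p : ℤ) (q P : ℕ), Squarefree P → P ∣ q → Q < (q : ℝ) / P →
      (∀ l : ℕ, l.Prime → l ∣ P → (l : ℝ) ≤ 3 / 8 * Real.log ((q : ℝ) / P)) →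
      ((q : ℝ) / P) ^ (-(5.48 : ℝ)) < |Real.pi - (p : ℝ) / (q : ℝ)|) ∧
    (∃ Q : ℝ, ∀ (p : ℤ) (q : ℕ), Q < q →
      (∀ l : ℕ, l.Prime → l ≠ 2 → (l : ℝ) ≤ 5 / 8 * Real.log q → l ∣ q) →
      (q : ℝ) ^ (-(2.53 : ℝ)) < |Real.pi - (p : ℝ) / (q : ℝ)|) ∧
    (∃ Q : ℝ, ∀ (p : ℤ) (q v : ℕ), Q < q → 2 ^ v ∣ q → q ^ 3 ≤ 2 ^ (16 * v) →
      (∀ l : ℕ, l.Prime → l ≠ 2 → (l : ℝ) ≤ 5 / 8 * Real.log q → l ∣ q) →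
      (q : ℝ) ^ (-(2.45 : ℝ)) < |Real.pi - (p : ℝ) / (q : ℝ)|) ∧
    (∃ M : ℕ, ∀ m : ℕ, M ≤ m → ∀ p : ℤ,
      Real.exp (-(2.54 * m)) < |Real.pi - p / (Nat.lcmUpto m : ℝ)| ∧
      Real.exp (-(1.54 * m)) < |Real.pi * (Nat.lcmUpto m : ℝ) - p|) ∧
    (∃ M : ℕ, ∀ m : ℕ, M ≤ m → ∀ a : ℕ → ℤ,
      Real.exp (-(2.54 * m)) < |Real.pi - ∑ j ∈ Finset.Icc 1 m, (a j : ℝ) / (j : ℝ)|) :=
  ⟨odd3, odd1, odd2, lcm_bound, sum_bound⟩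

end Vale.Agent.Results.P021.SmallPrimeDivisors
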